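import Vale.Agent.Lib.P074.Wasserstein
import Vale.Agent.Lib.P074.Monge

/-!
# P074, d = 2 : basic notions shared by the planar modules
-/

open MeasureTheory Set Metric
open scoped InnerProductSpace ENNReal

namespace Vale.Agent.Lib.P074

/-- `φ = max_i (⟪y i, x⟫ - w i)` and `T` is a measurable selection of the maximiser. -/
def IsMaxAffine {d : ℕ} {ι : Type} (y : ι → E d) (w : ι → ℝ) (φ : E d → ℝ) (T : E d → E d) :
    Prop :=
  Measurable T ∧ (∀ x i, ⟪y i, x⟫_ℝ - w i ≤ φ x) ∧ ∀ x, ∃ i, T x = y i ∧ φ x = ⟪y i, x⟫_ℝ - w i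

theorem IsMaxAffine.subgradient {d : ℕ} {ι : Type} {y : ι → E d} {w : ι → ℝ} {φ : E d → ℝ}
    {T : E d → E d} (h : IsMaxAffine y w φ T) (x z : E d) : φ x + ⟪T x, z - x⟫_ℝ ≤ φ z := by
  obtain ⟨i, hT, hφ⟩ := h.2.2 x
  have := h.2.1 z i
  rw [hT, hφ, inner_sub_right]
  linarith

theorem IsMaxAffine.convexOn {d : ℕ} {ι : Type} {y : ι → E d} {w : ι → ℝ} {φ : E d → ℝ}
    {T : E d → E d} (h : IsMaxAffine y w φ T) : ConvexOn ℝ univ φ := by
  refine ⟨convex_univ, fun x _ z _ a b ha hb hab => ?_⟩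
  obtain ⟨i, -, hφ⟩ := h.2.2 (a • x + b • z)
  have h1 := h.2.1 x i
  have h2 := h.2.1 z i
  rw [hφ, inner_add_right, inner_smul_right, inner_smul_right, smul_eq_mul, smul_eq_mul]
  have e : w i = a * w i + b * w i := by rw [← add_mul, hab, one_mul]
  nlinarith [mul_le_mul_of_nonneg_left h1 ha, mul_le_mul_of_nonneg_left h2 hb]

theorem IsMaxAffine.isBrenierMap {d : ℕ} {ι : Type} {y : ι → E d} {w : ι → ℝ} {φ : E d → ℝ}
    {T : E d → E d} (h : IsMaxAffine y w φ T) (ρ : Measure (E d)) : IsBrenierMap ρ T :=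
  ⟨h.1, φ, h.convexOn, Filter.Eventually.of_forall fun x z => h.subgradient x z⟩

theorem IsMaxAffine.norm_le {d : ℕ} {ι : Type} {y : ι → E d} {w : ι → ℝ} {φ : E d → ℝ}
    {T : E d → E d} (h : IsMaxAffine y w φ T) (R : ℝ) (hy : ∀ i, ‖y i‖ ≤ R) (x : E d) :
    ‖T x‖ ≤ R := by
  obtain ⟨i, hT, -⟩ := h.2.2 x
  rw [hT]
  exact hy i

/-- Triangle inequality for `L2dist` (bounded measurable maps, finite measure). -/
theorem L2dist_triangle {d : ℕ} (ρ : Measure (E d)) [IsFiniteMeasure ρ] (T U S : E d → E d)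
    (hT : Measurable T) (hU : Measurable U) (hS : Measurable S) (R : ℝ)
    (hTb : ∀ᵐ x ∂ρ, ‖T x‖ ≤ R) (hUb : ∀ᵐ x ∂ρ, ‖U x‖ ≤ R) (hSb : ∀ᵐ x ∂ρ, ‖S x‖ ≤ R) :
    L2dist ρ T S ≤ L2dist ρ T U + L2dist ρ U S := by
  have hint : ∀ (P Q : E d → E d), Measurable P → Measurable Q → (∀ᵐ x ∂ρ, ‖P x‖ ≤ R) →
      (∀ᵐ x ∂ρ, ‖Q x‖ ≤ R) → Integrable (fun x => ‖P x - Q x‖ ^ 2) ρ := by
    intro P Q hP hQ hPb hQb
    refine Integrable.of_bound (by fun_prop) ((2 * R) ^ 2) ?_
    filter_upwards [hPb, hQb] with x h1 h2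
    rw [Real.norm_eq_abs, abs_of_nonneg (by positivity)]
    exact pow_le_pow_left₀ (norm_nonneg _) ((norm_sub_le _ _).trans (by linarith)) 2
  set A : ℝ := ∫ x, ‖T x - U x‖ ^ 2 ∂ρ with hA
  set B : ℝ := ∫ x, ‖U x - S x‖ ^ 2 ∂ρ with hB
  have hA0 : 0 ≤ A := integral_nonneg fun x => by positivity
  have hB0 : 0 ≤ B := integral_nonneg fun x => by positivity
  have hiA := hint T U hT hU hTb hUb
  have hiB := hint U S hU hS hUb hSb
  have hiC := hint T S hT hS hTb hSb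
  unfold L2dist
  rw [← hA, ← hB]
  apply Real.sqrt_le_iff.2
  refine ⟨by positivity, ?_⟩
  -- for every t > 0 : |a+b|^2 ≤ (1+t) a^2 + (1+1/t) b^2
  have key : ∀ t : ℝ, 0 < t → ∫ x, ‖T x - S x‖ ^ 2 ∂ρ ≤ (1 + t) * A + (1 + 1 / t) * B := by
    intro t ht
    rw [hA, hB, ← integral_const_mul, ← integral_const_mul, ← integral_add (hiA.const_mul _)
      (hiB.const_mul _)]
    refine integral_mono hiC ((hiA.const_mul _).add (hiB.const_mul _)) fun x => ?_
    have h1 : ‖T x - S x‖ ≤ ‖T x - U x‖ + ‖U x - S x‖ := by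
      have : T x - S x = (T x - U x) + (U x - S x) := by abel
      rw [this]
      exact norm_add_le _ _
    have h2 : ‖T x - S x‖ ^ 2 ≤ (‖T x - U x‖ + ‖U x - S x‖) ^ 2 :=
      pow_le_pow_left₀ (norm_nonneg _) h1 2
    set a := ‖T x - U x‖
    set b := ‖U x - S x‖
    have h3 : 2 * a * b ≤ t * a ^ 2 + (1 / t) * b ^ 2 := by
      have h4 : 0 ≤ (t * a - b) ^ 2 / t := by positivity
      have h5 : (t * a - b) ^ 2 / t = t * a ^ 2 - 2 * a * b + (1 / t) * b ^ 2 := by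
        field_simp
        ring
      linarith
    nlinarith
  have hsq : (Real.sqrt A + Real.sqrt B) ^ 2 = A + B + 2 * (Real.sqrt A * Real.sqrt B) := by
    have := Real.sq_sqrt hA0
    have := Real.sq_sqrt hB0
    nlinarith
  rw [hsq]
  rcases hA0.eq_or_lt with hA' | hA'
  · -- A = 0
    rw [← hA'] at key ⊢
    simp only [mul_zero, zero_add, Real.sqrt_zero, zero_mul, add_zero]
    by_contra hcon
    push Not at hcon
    set Cc := ∫ x, ‖T x - S x‖ ^ 2 ∂ρ
    rcases hB0.eq_or_lt with hB' | hB'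
    · have := key 1 one_pos
      rw [← hB'] at this hcon
      linarith
    · have := key (2 * B / (Cc - B)) (by apply div_pos <;> linarith)
      have e : 1 / (2 * B / (Cc - B)) = (Cc - B) / (2 * B) := by rw [one_div_div]
      rw [e] at this
      have e2 : (Cc - B) / (2 * B) * B = (Cc - B) / 2 := by field_simp
      nlinarith
  rcases hB0.eq_or_lt with hB' | hB'
  · rw [← hB'] at key ⊢
    simp only [mul_zero, add_zero, Real.sqrt_zero]
    by_contra hcon
    push Not at hcon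
    set Cc := ∫ x, ‖T x - S x‖ ^ 2 ∂ρ
    have := key ((Cc - A) / (2 * A)) (by apply div_pos <;> linarith)
    have e2 : (Cc - A) / (2 * A) * A = (Cc - A) / 2 := by field_simp
    nlinarith
  · have hsA := Real.sqrt_pos.2 hA'
    have hsB := Real.sqrt_pos.2 hB'
    have := key (Real.sqrt B / Real.sqrt A) (by positivity)
    have e1 : Real.sqrt B / Real.sqrt A * A = Real.sqrt A * Real.sqrt B := by
      have := Real.sq_sqrt hA0
      field_simp
      nlinarith
    have e2 : 1 / (Real.sqrt B / Real.sqrt A) * B = Real.sqrt A * Real.sqrt B := by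
      have := Real.sq_sqrt hB0
      rw [one_div_div]
      field_simp
      nlinarith
    nlinarith

/-- `W p` is below the cost of any coupling. -/
theorem W_le_of_coupling {d : ℕ} (p : ℝ) (μ ν : Measure (E d)) (π : Measure (E d × E d))
    (hπ : IsCoupling π μ ν) : W p μ ν ≤ (∫ z, ‖z.1 - z.2‖ ^ p ∂π) ^ (1 / p) := by
  have hbdd : BddBelow (range fun π : {π : Measure (E d × E d) // IsCoupling π μ ν} =>
      (∫ z, ‖z.1 - z.2‖ ^ p ∂π.1) ^ (1 / p)) := by
    refine ⟨0, ?_⟩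
    rintro _ ⟨π', rfl⟩
    exact Real.rpow_nonneg (integral_nonneg fun z => Real.rpow_nonneg (norm_nonneg _) _) _
  exact ciInf_le hbdd ⟨π, hπ⟩

end Vale.Agent.Lib.P074
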